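import Vale.Agent.P162.Comb.Mat

/-!
# P162 : counting lemmas for perfect matchings (fixed point free involutions)
-/

set_option linter.unusedSectionVars false

namespace Vale.Agent.P162.MC

open Finset

/-- `s` is a perfect matching of `S`: an involution without fixed points. -/
def IsMt {S : Type*} (s : Equiv.Perm S) : Prop := (∀ x, s (s x) = x) ∧ ∀ x, s x ≠ x

/-- the set `z` is a union of edges of `s`. -/
def Clo {S : Type*} (s : Equiv.Perm S) (z : Finset S) : Prop := ∀ x ∈ z, s x ∈ z

/-- number of perfect matchings of a `k`-set. -/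
noncomputable def dm (k : ℕ) : ℕ := Nat.card {s : Equiv.Perm (Fin k) // IsMt s}

section congr
variable {S S' : Type*}

lemma isMt_permCongr (e : S ≃ S') (s : Equiv.Perm S) : IsMt (e.permCongr s) ↔ IsMt s := by
  constructor
  · rintro ⟨h1, h2⟩
    refine ⟨fun x => ?_, fun x hx => ?_⟩
    · have := h1 (e x)
      simpa [Equiv.permCongr_apply] using this
    · apply h2 (e x)
      simp [Equiv.permCongr_apply, hx]
  · rintro ⟨h1, h2⟩
    refine ⟨fun x => ?_, fun x hx => ?_⟩
    · simp [Equiv.permCongr_apply, h1]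
    · apply h2 (e.symm x)
      have : e (s (e.symm x)) = x := by simpa [Equiv.permCongr_apply] using hx
      exact (Equiv.eq_symm_apply e).mpr this

lemma card_mt_congr (e : S ≃ S') :
    Nat.card {s : Equiv.Perm S // IsMt s} = Nat.card {s : Equiv.Perm S' // IsMt s} :=
  Nat.card_congr (Equiv.subtypeEquiv e.permCongr (fun s => (isMt_permCongr e s).symm))

lemma card_mt [Fintype S] : Nat.card {s : Equiv.Perm S // IsMt s} = dm (Fintype.card S) :=
  card_mt_congr (Fintype.equivFin S)

end congr

section cells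
variable {S ι : Type*} (c : S → ι)

/-- restriction of a cell preserving matching to one cell -/
def restr (s : Equiv.Perm S) (hs : ∀ x, s (s x) = x) (hc : ∀ x, c (s x) = c x) (i : ι) :
    Equiv.Perm {x // c x = i} :=
  Function.Involutive.toPerm (fun x => ⟨s x.1, (hc x.1).trans x.2⟩)
    (fun x => Subtype.ext (hs x.1))

lemma glue_aux (t : ∀ i, Equiv.Perm {x // c x = i}) {y : S} {i : ι} (h : c y = i) :
    (t (c y) ⟨y, rfl⟩).1 = (t i ⟨y, h⟩).1 := by
  subst h; rfl

/-- gluing matchings of the cells -/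
def glue (t : ∀ i, Equiv.Perm {x // c x = i}) (ht : ∀ i x, t i (t i x) = x) : Equiv.Perm S :=
  Function.Involutive.toPerm (fun x => (t (c x) ⟨x, rfl⟩).1) (fun x => by
    have h : c (t (c x) ⟨x, rfl⟩).1 = c x := (t (c x) ⟨x, rfl⟩).2
    show (t (c (t (c x) ⟨x, rfl⟩).1) ⟨(t (c x) ⟨x, rfl⟩).1, rfl⟩).1 = x
    rw [glue_aux c t h]
    have : (⟨(t (c x) ⟨x, rfl⟩).1, h⟩ : {y // c y = c x}) = t (c x) ⟨x, rfl⟩ := Subtype.ext rfl
    rw [this, ht])

/-- matchings preserving all cells = families of matchings of the cells -/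
def cellEquiv : {s : Equiv.Perm S // IsMt s ∧ ∀ x, c (s x) = c x} ≃
    (∀ i, {t : Equiv.Perm {x // c x = i} // IsMt t}) where
  toFun s := fun i => ⟨restr c s.1 s.2.1.1 s.2.2 i,
    ⟨fun x => Subtype.ext (s.2.1.1 x.1), fun x hx => s.2.1.2 x.1 (congrArg Subtype.val hx)⟩⟩
  invFun t := ⟨glue c (fun i => (t i).1) (fun i x => (t i).2.1 x), by
    refine ⟨⟨fun x => ?_, fun x hx => ?_⟩, fun x => ?_⟩
    · exact (Function.Involutive.toPerm_involutive _) x
    · exact (t (c x)).2.2 ⟨x, rfl⟩ (Subtype.ext hx)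
    · exact ((t (c x)).1 ⟨x, rfl⟩).2⟩
  left_inv s := by
    apply Subtype.ext
    ext x
    rfl
  right_inv t := by
    funext i
    apply Subtype.ext
    ext x
    obtain ⟨x, hx⟩ := x
    exact glue_aux c (fun i => (t i).1) hx

lemma card_cells [Fintype S] [DecidableEq S] [Fintype ι] [DecidableEq ι] :
    Nat.card {s : Equiv.Perm S // IsMt s ∧ ∀ x, c (s x) = c x} =
      ∏ i, dm (univ.filter (fun x => c x = i)).card := by
  rw [Nat.card_congr (cellEquiv c), Nat.card_pi]
  refine Finset.prod_congr rfl (fun i _ => ?_)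
  rw [card_mt, Fintype.card_subtype]

end cells

section closed
variable {S : Type*} [Fintype S] [DecidableEq S] {s : Equiv.Perm S}

lemma clo_iff (hs : IsMt s) (z : Finset S) : Clo s z ↔ ∀ x, (s x ∈ z ↔ x ∈ z) := by
  constructor
  · intro h x
    refine ⟨fun hx => ?_, fun hx => h x hx⟩
    have := h _ hx
    rwa [hs.1] at this
  · intro h x hx
    exact (h x).2 hx

/-- matchings for which `z` is closed, counted -/
lemma card_clo (z : Finset S) :
    Nat.card {s : Equiv.Perm S // IsMt s ∧ Clo s z} = dm z.card * dm (Fintype.card S - z.card) := by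
  have h1 : Nat.card {s : Equiv.Perm S // IsMt s ∧ Clo s z} =
      Nat.card {s : Equiv.Perm S // IsMt s ∧ ∀ x, decide (s x ∈ z) = decide (x ∈ z)} := by
    refine Nat.card_congr (Equiv.subtypeEquivRight (fun s => ?_))
    constructor
    · rintro ⟨h, hc⟩
      exact ⟨h, fun x => by simpa using (clo_iff h z).1 hc x⟩
    · rintro ⟨h, hc⟩
      exact ⟨h, (clo_iff h z).2 (fun x => by simpa using hc x)⟩
  rw [h1, card_cells (fun x => decide (x ∈ z)), Fintype.prod_bool]
  have e1 : (univ.filter (fun x => decide (x ∈ z) = true)) = z := by ext x; simp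
  have e2 : (univ.filter (fun x => decide (x ∈ z) = false)) = zᶜ := by ext x; simp
  rw [e1, e2, Finset.card_compl]

/-- a canonical transversal of the matching `s` -/
noncomputable def T0 (s : Equiv.Perm S) : Finset S :=
  univ.filter (fun x => Fintype.equivFin S x < Fintype.equivFin S (s x))

lemma mem_T0_iff (hs : IsMt s) (x : S) : x ∈ T0 s ↔ s x ∉ T0 s := by
  have hne : Fintype.equivFin S x ≠ Fintype.equivFin S (s x) := fun h =>
    hs.2 x ((Fintype.equivFin S).injective h).symm
  simp only [T0, mem_filter, mem_univ, true_and, hs.1 x, not_lt]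
  constructor
  · intro h; exact h.le
  · intro h; exact lt_of_le_of_ne h hne

/-- the closed set generated by `w` -/
def cl (s : Equiv.Perm S) (w : Finset S) : Finset S := w ∪ w.image s

lemma mem_cl (hs : IsMt s) (w : Finset S) (x : S) : x ∈ cl s w ↔ x ∈ w ∨ s x ∈ w := by
  simp only [cl, mem_union, mem_image]
  constructor
  · rintro (h | ⟨y, hy, rfl⟩)
    · exact Or.inl h
    · exact Or.inr (by rwa [hs.1])
  · rintro (h | h)
    · exact Or.inl h
    · exact Or.inr ⟨s x, h, hs.1 x⟩

lemma cl_clo (hs : IsMt s) (w : Finset S) : Clo s (cl s w) := by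
  intro x hx
  rw [mem_cl hs] at hx ⊢
  rcases hx with h | h
  · exact Or.inr (by rwa [hs.1])
  · exact Or.inl h

lemma card_cl (hs : IsMt s) {w : Finset S} (hw : w ⊆ T0 s) : (cl s w).card = 2 * w.card := by
  have hd : Disjoint w (w.image s) := by
    rw [Finset.disjoint_left]
    intro x hx hx'
    obtain ⟨y, hy, rfl⟩ := mem_image.1 hx'
    exact (mem_T0_iff hs y).1 (hw hy) (hw hx)
  rw [cl, card_union_of_disjoint hd, card_image_of_injective _ s.injective, two_mul]

lemma cl_inter_T0 (hs : IsMt s) {w : Finset S} (hw : w ⊆ T0 s) : cl s w ∩ T0 s = w := by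
  ext x
  rw [mem_inter, mem_cl hs]
  constructor
  · rintro ⟨h | h, hx⟩
    · exact h
    · exact absurd (hw h) ((mem_T0_iff hs x).1 hx)
  · intro h
    exact ⟨Or.inl h, hw h⟩

lemma cl_of_clo (hs : IsMt s) {z : Finset S} (hz : Clo s z) : cl s (z ∩ T0 s) = z := by
  ext x
  rw [mem_cl hs, mem_inter, mem_inter]
  constructor
  · rintro (h | h)
    · exact h.1
    · exact ((clo_iff hs z).1 hz x).1 h.1
  · intro hx
    by_cases hT : x ∈ T0 s
    · exact Or.inl ⟨hx, hT⟩
    · refine Or.inr ⟨hz x hx, ?_⟩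
      by_contra h
      exact hT ((mem_T0_iff hs x).2 h)

lemma cl_inter (hs : IsMt s) {w w' : Finset S} (hw : w ⊆ T0 s) (hw' : w' ⊆ T0 s) :
    cl s (w ∩ w') = cl s w ∩ cl s w' := by
  ext x
  simp only [mem_cl hs, mem_inter]
  constructor
  · rintro (h | h)
    · exact ⟨Or.inl h.1, Or.inl h.2⟩
    · exact ⟨Or.inr h.1, Or.inr h.2⟩
  · rintro ⟨h1 | h1, h2 | h2⟩
    · exact Or.inl ⟨h1, h2⟩
    · exact absurd (hw' h2) ((mem_T0_iff hs x).1 (hw h1))
    · exact absurd (hw h1) ((mem_T0_iff hs x).1 (hw' h2))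
    · exact Or.inr ⟨h1, h2⟩

lemma card_T0 (hs : IsMt s) : 2 * (T0 s).card = Fintype.card S := by
  rw [← card_cl hs (Finset.Subset.refl _)]
  have : cl s (T0 s) = univ := by
    have := cl_of_clo hs (z := univ) (fun x _ => mem_univ _)
    rwa [univ_inter] at this
  rw [this, card_univ]

lemma clo_card_even (hs : IsMt s) {z : Finset S} (hz : Clo s z) :
    z.card = 2 * (z ∩ T0 s).card := by
  conv_lhs => rw [← cl_of_clo hs hz]
  exact card_cl hs inter_subset_right

/-- closed sets = subsets of the transversal -/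
noncomputable def cloEquiv (hs : IsMt s) : {z : Finset S // Clo s z} ≃ {w : Finset S // w ⊆ T0 s} where
  toFun z := ⟨z.1 ∩ T0 s, inter_subset_right⟩
  invFun w := ⟨cl s w.1, cl_clo hs w.1⟩
  left_inv z := Subtype.ext (cl_of_clo hs z.2)
  right_inv w := Subtype.ext (cl_inter_T0 hs w.2)

open Classical in
/-- the number of closed sets with `n` edges -/
lemma card_clo_sets (hs : IsMt s) (n : ℕ) :
    (univ.filter (fun z : Finset S => Clo s z ∧ z.card = 2 * n)).card =
      (Fintype.card S / 2).choose n := by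
  have hM : Fintype.card S / 2 = (T0 s).card := by
    rw [← card_T0 hs]; simp
  rw [hM, ← Finset.card_powersetCard]
  refine Finset.card_bij' (fun z _ => z ∩ T0 s) (fun w _ => cl s w) ?_ ?_ ?_ ?_
  · intro z hz
    simp only [mem_filter, mem_univ, true_and] at hz
    rw [mem_powersetCard]
    refine ⟨inter_subset_right, ?_⟩
    have := clo_card_even hs hz.1
    omega
  · intro w hw
    rw [mem_powersetCard] at hw
    simp only [mem_filter, mem_univ, true_and]
    exact ⟨cl_clo hs w, by rw [card_cl hs hw.1, hw.2]⟩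
  · intro z hz
    simp only [mem_filter, mem_univ, true_and] at hz
    exact cl_of_clo hs hz.1
  · intro w hw
    rw [mem_powersetCard] at hw
    exact cl_inter_T0 hs hw.1

end closed

/-! ### the same facts in the vocabulary of `Comb/Mat` (`IsMat`, `IsCl`, `dm`, filtered finsets) -/

section bridge
variable {S : Type*} [Fintype S] [DecidableEq S]

lemma natCard_eq_filter {α : Type*} [Fintype α] (P Q : α → Prop) [DecidablePred Q]
    (h : ∀ a, P a ↔ Q a) : Nat.card {a // P a} = (univ.filter Q).card := by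
  rw [Nat.card_congr (Equiv.subtypeEquivRight h), Nat.card_eq_fintype_card, Fintype.card_subtype]

lemma dm_eq (k : ℕ) : dm k = Vale.Agent.P162.dm k :=
  natCard_eq_filter _ _ (fun _ => Iff.rfl)

lemma isCl_iff {μ : Equiv.Perm S} (h : IsMat μ) (z : Finset S) : IsCl μ z ↔ Clo μ z :=
  (clo_iff (s := μ) h z).symm

/-- matchings preserving all the cells of `c` -/
theorem card_mat_cells {ι : Type*} [Fintype ι] [DecidableEq ι] (c : S → ι) :
    (univ.filter (fun μ : Equiv.Perm S => IsMat μ ∧ ∀ x, c (μ x) = c x)).card =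
      ∏ i, Vale.Agent.P162.dm (univ.filter (fun x => c x = i)).card := by
  rw [← natCard_eq_filter (fun μ : Equiv.Perm S => IsMt μ ∧ ∀ x, c (μ x) = c x)
    (fun μ : Equiv.Perm S => IsMat μ ∧ ∀ x, c (μ x) = c x) (fun _ => Iff.rfl), card_cells c]
  simp only [dm_eq]

/-- matchings for which `z` is closed -/
theorem card_mat_cl (z : Finset S) :
    (univ.filter (fun μ : Equiv.Perm S => IsMat μ ∧ IsCl μ z)).card =
      Vale.Agent.P162.dm z.card * Vale.Agent.P162.dm (Fintype.card S - z.card) := by
  rw [← natCard_eq_filter (fun μ : Equiv.Perm S => IsMt μ ∧ Clo μ z)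
    (fun μ : Equiv.Perm S => IsMat μ ∧ IsCl μ z) (fun μ => ⟨fun h => ⟨h.1, (isCl_iff h.1 z).2 h.2⟩, fun h => ⟨h.1, (isCl_iff h.1 z).1 h.2⟩⟩),
    card_clo z, dm_eq, dm_eq]

/-- matchings for which both `x` and `y` are closed: product over the four cells -/
theorem card_mat_cl2 (x y : Finset S) :
    (univ.filter (fun μ : Equiv.Perm S => IsMat μ ∧ IsCl μ x ∧ IsCl μ y)).card =
      Vale.Agent.P162.dm (x ∩ y).card * Vale.Agent.P162.dm (x \ y).card *
        (Vale.Agent.P162.dm (y \ x).card * Vale.Agent.P162.dm ((x ∪ y)ᶜ).card) := by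
  have h := card_mat_cells (fun a : S => (decide (a ∈ x), decide (a ∈ y)))
  rw [Fintype.prod_prod_type, Fintype.prod_bool, Fintype.prod_bool, Fintype.prod_bool] at h
  have e1 : (univ.filter (fun a : S => (decide (a ∈ x), decide (a ∈ y)) = (true, true))) = x ∩ y := by
    ext a; simp
  have e2 : (univ.filter (fun a : S => (decide (a ∈ x), decide (a ∈ y)) = (true, false))) = x \ y := by
    ext a; simp
  have e3 : (univ.filter (fun a : S => (decide (a ∈ x), decide (a ∈ y)) = (false, true))) = y \ x := by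
    ext a; simp [and_comm]
  have e4 : (univ.filter (fun a : S => (decide (a ∈ x), decide (a ∈ y)) = (false, false))) =
      (x ∪ y)ᶜ := by
    ext a; simp
  rw [e1, e2, e3, e4] at h
  rw [← h]
  refine congrArg Finset.card (Finset.filter_congr (fun μ _ => ?_))
  constructor
  · rintro ⟨h, h1, h2⟩
    exact ⟨h, fun a => by simp only [Prod.mk.injEq, decide_eq_decide]; exact ⟨h1 a, h2 a⟩⟩
  · rintro ⟨h, h1⟩
    have h1' : ∀ a, (μ a ∈ x ↔ a ∈ x) ∧ (μ a ∈ y ↔ a ∈ y) := fun a => by
      have := h1 a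
      simpa only [Prod.mk.injEq, decide_eq_decide] using this
    exact ⟨h, fun a => (h1' a).1, fun a => (h1' a).2⟩

/-- the number of closed sets with `n` edges -/
theorem card_cl_sets {μ : Equiv.Perm S} (h : IsMat μ) (n : ℕ) :
    (univ.filter (fun z : Finset S => IsCl μ z ∧ z.card = 2 * n)).card =
      (Fintype.card S / 2).choose n := by
  classical
  rw [← card_clo_sets (s := μ) h n]
  refine congrArg Finset.card ?_
  ext z
  simp only [mem_filter, mem_univ, true_and, isCl_iff h]

end bridge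

end Vale.Agent.P162.MC
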