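import Vale.Agent.P162.Comb.Mat
set_option linter.unusedSectionVars false
namespace Vale.Agent.P162
open Finset
variable {S : Type*} [Fintype S] [DecidableEq S] (p : S → Prop) [DecidablePred p]

/-- glue two permutations of the two parts -/
def joinP (μ1 : Equiv.Perm {x // p x}) (μ2 : Equiv.Perm {x // ¬ p x}) : Equiv.Perm S :=
  Equiv.Perm.subtypeCongr μ1 μ2

/-- glue two subsets of the two parts -/
def joinF (y1 : Finset {x // p x}) (y2 : Finset {x // ¬ p x}) : Finset S :=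
  y1.map (Function.Embedding.subtype _) ∪ y2.map (Function.Embedding.subtype _)

variable {p}

lemma joinP_pos (μ1 : Equiv.Perm {x // p x}) (μ2 : Equiv.Perm {x // ¬ p x}) {x : S} (h : p x) :
    joinP p μ1 μ2 x = μ1 ⟨x, h⟩ := Equiv.Perm.subtypeCongr.left_apply _ _ h

lemma joinP_neg (μ1 : Equiv.Perm {x // p x}) (μ2 : Equiv.Perm {x // ¬ p x}) {x : S} (h : ¬ p x) :
    joinP p μ1 μ2 x = μ2 ⟨x, h⟩ := Equiv.Perm.subtypeCongr.right_apply _ _ h

lemma joinP_pres (μ1 : Equiv.Perm {x // p x}) (μ2 : Equiv.Perm {x // ¬ p x}) (x : S) :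
    p (joinP p μ1 μ2 x) ↔ p x := by
  by_cases h : p x
  · rw [joinP_pos _ _ h]; exact ⟨fun _ => h, fun _ => (μ1 ⟨x, h⟩).2⟩
  · rw [joinP_neg _ _ h]; exact ⟨fun hh => absurd hh (μ2 ⟨x, h⟩).2, fun hh => absurd hh h⟩

lemma mem_joinF_pos (y1 : Finset {x // p x}) (y2 : Finset {x // ¬ p x}) {x : S} (h : p x) :
    x ∈ joinF p y1 y2 ↔ (⟨x, h⟩ : {x // p x}) ∈ y1 := by
  simp [joinF, h]

lemma mem_joinF_neg (y1 : Finset {x // p x}) (y2 : Finset {x // ¬ p x}) {x : S} (h : ¬ p x) :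
    x ∈ joinF p y1 y2 ↔ (⟨x, h⟩ : {x // ¬ p x}) ∈ y2 := by
  simp [joinF, h]

lemma isMat_joinP (μ1 : Equiv.Perm {x // p x}) (μ2 : Equiv.Perm {x // ¬ p x}) :
    IsMat (joinP p μ1 μ2) ↔ IsMat μ1 ∧ IsMat μ2 := by
  constructor
  · rintro ⟨h1, h2⟩
    refine ⟨⟨fun a => ?_, fun a ha => ?_⟩, ⟨fun a => ?_, fun a ha => ?_⟩⟩
    · have := h1 a.1
      rw [joinP_pos _ _ a.2, joinP_pos _ _ (μ1 ⟨a.1, a.2⟩).2] at this
      exact Subtype.ext this
    · apply h2 a.1
      rw [joinP_pos _ _ a.2]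
      exact congrArg Subtype.val ha
    · have := h1 a.1
      rw [joinP_neg _ _ a.2, joinP_neg _ _ (μ2 ⟨a.1, a.2⟩).2] at this
      exact Subtype.ext this
    · apply h2 a.1
      rw [joinP_neg _ _ a.2]
      exact congrArg Subtype.val ha
  · rintro ⟨⟨a1, a2⟩, ⟨b1, b2⟩⟩
    refine ⟨fun x => ?_, fun x hx => ?_⟩
    · by_cases h : p x
      · rw [joinP_pos _ _ h, joinP_pos _ _ (μ1 ⟨x, h⟩).2]
        exact congrArg Subtype.val (a1 ⟨x, h⟩)
      · rw [joinP_neg _ _ h, joinP_neg _ _ (μ2 ⟨x, h⟩).2]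
        exact congrArg Subtype.val (b1 ⟨x, h⟩)
    · by_cases h : p x
      · rw [joinP_pos _ _ h] at hx
        exact a2 ⟨x, h⟩ (Subtype.ext hx)
      · rw [joinP_neg _ _ h] at hx
        exact b2 ⟨x, h⟩ (Subtype.ext hx)

lemma isCl_joinP_joinF (μ1 : Equiv.Perm {x // p x}) (μ2 : Equiv.Perm {x // ¬ p x})
    (z1 : Finset {x // p x}) (z2 : Finset {x // ¬ p x}) :
    IsCl (joinP p μ1 μ2) (joinF p z1 z2) ↔ IsCl μ1 z1 ∧ IsCl μ2 z2 := by
  constructor
  · intro h
    refine ⟨fun a => ?_, fun a => ?_⟩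
    · have := h a.1
      rw [joinP_pos _ _ a.2, mem_joinF_pos _ _ (μ1 ⟨a.1, a.2⟩).2, mem_joinF_pos _ _ a.2] at this
      exact this
    · have := h a.1
      rw [joinP_neg _ _ a.2, mem_joinF_neg _ _ (μ2 ⟨a.1, a.2⟩).2, mem_joinF_neg _ _ a.2] at this
      exact this
  · rintro ⟨h1, h2⟩ x
    by_cases h : p x
    · rw [joinP_pos _ _ h, mem_joinF_pos _ _ (μ1 ⟨x, h⟩).2, mem_joinF_pos _ _ h]
      exact h1 ⟨x, h⟩
    · rw [joinP_neg _ _ h, mem_joinF_neg _ _ (μ2 ⟨x, h⟩).2, mem_joinF_neg _ _ h]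
      exact h2 ⟨x, h⟩

lemma isTr_joinP_joinF (μ1 : Equiv.Perm {x // p x}) (μ2 : Equiv.Perm {x // ¬ p x})
    (z1 : Finset {x // p x}) (z2 : Finset {x // ¬ p x}) :
    IsTr (joinP p μ1 μ2) (joinF p z1 z2) ↔ IsTr μ1 z1 ∧ IsTr μ2 z2 := by
  constructor
  · intro h
    refine ⟨fun a => ?_, fun a => ?_⟩
    · have := h a.1
      rw [joinP_pos _ _ a.2, mem_joinF_pos _ _ (μ1 ⟨a.1, a.2⟩).2, mem_joinF_pos _ _ a.2] at this
      exact this
    · have := h a.1
      rw [joinP_neg _ _ a.2, mem_joinF_neg _ _ (μ2 ⟨a.1, a.2⟩).2, mem_joinF_neg _ _ a.2] at this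
      exact this
  · rintro ⟨h1, h2⟩ x
    by_cases h : p x
    · rw [joinP_pos _ _ h, mem_joinF_pos _ _ (μ1 ⟨x, h⟩).2, mem_joinF_pos _ _ h]
      exact h1 ⟨x, h⟩
    · rw [joinP_neg _ _ h, mem_joinF_neg _ _ (μ2 ⟨x, h⟩).2, mem_joinF_neg _ _ h]
      exact h2 ⟨x, h⟩

variable (p)

/-- subsets of `S` = pairs of subsets of the two parts -/
def joinFEquiv : Finset {x // p x} × Finset {x // ¬ p x} ≃ Finset S where
  toFun y := joinF p y.1 y.2
  invFun y := (y.subtype p, y.subtype (fun x => ¬ p x))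
  left_inv y := by
    ext a
    · simp only [mem_subtype]; exact mem_joinF_pos _ _ a.2
    · simp only [mem_subtype]; exact mem_joinF_neg _ _ a.2
  right_inv y := by
    ext x
    by_cases h : p x
    · rw [mem_joinF_pos _ _ h]; simp
    · rw [mem_joinF_neg _ _ h]; simp

/-- permutations preserving `p` = pairs of permutations of the two parts -/
def joinPEquiv : Equiv.Perm {x // p x} × Equiv.Perm {x // ¬ p x} ≃
    {μ : Equiv.Perm S // ∀ x, p (μ x) ↔ p x} where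
  toFun μ := ⟨joinP p μ.1 μ.2, joinP_pres _ _⟩
  invFun μ := (μ.1.subtypePerm μ.2, μ.1.subtypePerm (fun x => not_congr (μ.2 x)))
  left_inv μ := by
    ext a
    · simp only [Equiv.Perm.subtypePerm_apply]; rw [joinP_pos _ _ a.2]
    · simp only [Equiv.Perm.subtypePerm_apply]; rw [joinP_neg _ _ a.2]
  right_inv μ := by
    apply Subtype.ext
    ext x
    by_cases h : p x
    · simp only; rw [joinP_pos _ _ h]; rfl
    · simp only; rw [joinP_neg _ _ h]; rfl

theorem sum_joinF {R : Type*} [AddCommMonoid R] (F : Finset S → R) :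
    ∑ y : Finset S, F y
      = ∑ y1 : Finset {x // p x}, ∑ y2 : Finset {x // ¬ p x}, F (joinF p y1 y2) := by
  rw [← Fintype.sum_prod_type', ← (joinFEquiv p).sum_comp]
  rfl

theorem sum_joinP {R : Type*} [AddCommMonoid R] (F : Equiv.Perm S → R) :
    ∑ μ ∈ univ.filter (fun μ : Equiv.Perm S => ∀ x, p (μ x) ↔ p x), F μ
      = ∑ μ1 : Equiv.Perm {x // p x}, ∑ μ2 : Equiv.Perm {x // ¬ p x}, F (joinP p μ1 μ2) := by
  rw [← Fintype.sum_prod_type', Finset.sum_subtype (p := fun μ : Equiv.Perm S => ∀ x, p (μ x) ↔ p x)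
    _ (fun μ => by simp), ← (joinPEquiv p).sum_comp]
  rfl

lemma card_joinF (y1 : Finset {x // p x}) (y2 : Finset {x // ¬ p x}) :
    (joinF p y1 y2).card = y1.card + y2.card := by
  unfold joinF
  rw [card_union_of_disjoint, card_map, card_map]
  rw [Finset.disjoint_left]
  intro x h1 h2
  simp only [mem_map, Function.Embedding.coe_subtype, Subtype.exists, exists_and_right,
    exists_eq_right] at h1 h2
  obtain ⟨a, _⟩ := h1
  obtain ⟨b, _⟩ := h2
  exact b a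

lemma joinF_inter_filter (y1 : Finset {x // p x}) (y2 : Finset {x // ¬ p x}) :
    joinF p y1 y2 ∩ univ.filter p = y1.map (Function.Embedding.subtype _) := by
  ext x
  by_cases h : p x
  · simp [mem_joinF_pos _ _ h, h]
  · simp [h]

lemma card_joinF_inter_filter (y1 : Finset {x // p x}) (y2 : Finset {x // ¬ p x}) :
    (joinF p y1 y2 ∩ univ.filter p).card = y1.card := by
  rw [joinF_inter_filter, card_map]

lemma joinF_sdiff_filter (y1 : Finset {x // p x}) (y2 : Finset {x // ¬ p x}) :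
    joinF p y1 y2 \ univ.filter p = y2.map (Function.Embedding.subtype _) := by
  ext x
  by_cases h : p x
  · simp [h]
  · simp [mem_joinF_neg _ _ h, h]

lemma card_joinF_sdiff_filter (y1 : Finset {x // p x}) (y2 : Finset {x // ¬ p x}) :
    (joinF p y1 y2 \ univ.filter p).card = y2.card := by
  rw [joinF_sdiff_filter, card_map]

end Vale.Agent.P162
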