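import Mathlib

/-!
# P162 : perfect matchings of a finite type (fixed-point-free involutions)
Neutral combinatorial core: conjugacy, counts, transversals, closed sets.
-/

set_option linter.unusedSectionVars false

namespace Vale.Agent.P162

open Finset

variable {S : Type*} [Fintype S] [DecidableEq S]

/-- perfect matching of the type `S` = fixed-point-free involution -/
def IsMat (μ : Equiv.Perm S) : Prop := (∀ x, μ (μ x) = x) ∧ ∀ x, μ x ≠ x

/-- `y` contains exactly one endpoint of every edge -/
def IsTr (μ : Equiv.Perm S) (y : Finset S) : Prop := ∀ x, μ x ∈ y ↔ x ∉ y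

/-- `z` is a union of edges -/
def IsCl (μ : Equiv.Perm S) (z : Finset S) : Prop := ∀ x, μ x ∈ z ↔ x ∈ z

instance (μ : Equiv.Perm S) : Decidable (IsMat μ) := by unfold IsMat; infer_instance
instance (μ : Equiv.Perm S) (y : Finset S) : Decidable (IsTr μ y) := by unfold IsTr; infer_instance
instance (μ : Equiv.Perm S) (z : Finset S) : Decidable (IsCl μ z) := by unfold IsCl; infer_instance

/-- number of perfect matchings of a `k`-set -/
def dm (k : ℕ) : ℕ := (univ.filter (fun μ : Equiv.Perm (Fin k) => IsMat μ)).card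

lemma IsMat.conj {μ : Equiv.Perm S} (h : IsMat μ) (τ : Equiv.Perm S) : IsMat (τ * μ * τ⁻¹) := by
  constructor
  · intro x
    simp [Equiv.Perm.mul_apply, h.1]
  · intro x hx
    apply h.2 (τ⁻¹ x)
    have h2 : τ (μ (τ⁻¹ x)) = x := by simpa [Equiv.Perm.mul_apply] using hx
    calc μ (τ⁻¹ x) = τ⁻¹ (τ (μ (τ⁻¹ x))) := by simp
      _ = τ⁻¹ x := by rw [h2]

lemma IsMat.cycleType {μ : Equiv.Perm S} (h : IsMat μ) :
    μ.cycleType = Multiset.replicate (Fintype.card S / 2) 2 := by
  have h2 : μ ^ 2 = 1 := by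
    ext x; simp [pow_two, Equiv.Perm.mul_apply, h.1]
  have : Fact (Nat.Prime 2) := ⟨Nat.prime_two⟩
  have h3 := Equiv.Perm.cycleType_of_pow_prime_eq_one h2
  have h4 := Equiv.Perm.sum_cycleType μ
  have h5 : μ.support = univ := by
    ext x; simp [Equiv.Perm.mem_support, h.2]
  rw [h5, h3, Multiset.sum_replicate, card_univ] at h4
  rw [h3]
  congr 1
  simp only [smul_eq_mul] at h4
  omega

theorem isMat_conj {μ μ' : Equiv.Perm S} (h : IsMat μ) (h' : IsMat μ') :
    ∃ τ : Equiv.Perm S, μ' = τ * μ * τ⁻¹ := by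
  have : IsConj μ μ' := by
    rw [Equiv.Perm.isConj_iff_cycleType_eq, h.cycleType, h'.cycleType]
  obtain ⟨τ, hτ⟩ := isConj_iff.mp this
  exact ⟨τ, hτ.symm⟩

theorem const_of_conj_inv {R : Type*} (F : Equiv.Perm S → R)
    (hF : ∀ τ μ : Equiv.Perm S, F (τ * μ * τ⁻¹) = F μ) {μ μ' : Equiv.Perm S}
    (h : IsMat μ) (h' : IsMat μ') : F μ = F μ' := by
  obtain ⟨τ, rfl⟩ := isMat_conj h h'
  exact (hF τ μ).symm

lemma IsMat.even_card {μ : Equiv.Perm S} (h : IsMat μ) : Even (Fintype.card S) := by
  have h4 := Equiv.Perm.sum_cycleType μ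
  have h5 : μ.support = univ := by
    ext x; simp [Equiv.Perm.mem_support, h.2]
  rw [h5, h.cycleType, Multiset.sum_replicate, card_univ] at h4
  simp only [smul_eq_mul] at h4
  exact ⟨Fintype.card S / 2, by omega⟩

lemma isMat_permCongr {S' : Type*} (e : S ≃ S') (μ : Equiv.Perm S) :
    IsMat (e.permCongr μ) ↔ IsMat μ := by
  unfold IsMat
  simp only [Equiv.permCongr_apply]
  constructor
  · rintro ⟨h1, h2⟩
    refine ⟨fun x => ?_, fun x hx => h2 (e x) (by simp [hx])⟩
    have := h1 (e x)
    simpa using this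
  · rintro ⟨h1, h2⟩
    refine ⟨fun x => by simp [h1], fun x hx => h2 (e.symm x) ?_⟩
    apply e.injective
    simpa using hx

theorem card_mat_congr {S' : Type*} [Fintype S'] [DecidableEq S'] (e : S ≃ S') :
    (univ.filter (fun μ : Equiv.Perm S => IsMat μ)).card
      = (univ.filter (fun μ : Equiv.Perm S' => IsMat μ)).card := by
  apply Finset.card_equiv e.permCongr
  intro μ
  rw [mem_filter, mem_filter, isMat_permCongr]
  simp

theorem card_mat : (univ.filter (fun μ : Equiv.Perm S => IsMat μ)).card = dm (Fintype.card S) :=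
  card_mat_congr (Fintype.equivFin S)

lemma IsTr.card {μ : Equiv.Perm S} (h : IsMat μ) {y : Finset S} (hy : IsTr μ y) :
    2 * y.card = Fintype.card S := by
  have h1 : y.map μ.toEmbedding = yᶜ := by
    ext z
    simp only [mem_map, Equiv.coe_toEmbedding, mem_compl]
    constructor
    · rintro ⟨x, hx, rfl⟩ hmem
      exact ((hy x).1 hmem) hx
    · intro hz
      exact ⟨μ z, (hy z).2 hz, h.1 z⟩
  have h2 := Finset.card_compl y
  rw [← h1, card_map] at h2
  have h3 := Finset.card_le_univ y
  omega

lemma exists_isTr {μ : Equiv.Perm S} (h : IsMat μ) : ∃ y : Finset S, IsTr μ y := by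
  let e := Fintype.equivFin S
  refine ⟨univ.filter (fun x => e x < e (μ x)), fun x => ?_⟩
  simp only [mem_filter, mem_univ, true_and, h.1]
  have : e x ≠ e (μ x) := fun hh => h.2 x (e.injective hh).symm
  omega

theorem card_tr {μ : Equiv.Perm S} (h : IsMat μ) :
    (univ.filter (fun y : Finset S => IsTr μ y)).card = 2 ^ (Fintype.card S / 2) := by
  obtain ⟨y0, hy0⟩ := exists_isTr h
  have hc := hy0.card h
  have : Fintype.card S / 2 = y0.card := by omega
  rw [this, ← Finset.card_powerset]
  apply Finset.card_nbij' (fun y => y ∩ y0) (fun A => univ.filter (fun z => z ∈ A ∨ (μ z ∈ y0 ∧ μ z ∉ A)))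
  · intro y _
    simp only [coe_powerset, Set.mem_preimage, Set.mem_powerset_iff, coe_inter]
    exact Set.inter_subset_right
  · intro A hA
    have hA' : A ⊆ y0 := by simpa using hA
    simp only [coe_filter, mem_univ, true_and, Set.mem_ofPred_eq]
    intro x
    simp only [mem_filter, mem_univ, true_and, h.1]
    by_cases hx : x ∈ y0
    · have h1 : μ x ∉ y0 := fun hh => ((hy0 x).1 hh) hx
      have h2 : μ x ∉ A := fun hh => h1 (hA' hh)
      tauto
    · have h1 : μ x ∈ y0 := (hy0 x).2 hx
      have h2 : x ∉ A := fun hh => hx (hA' hh)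
      tauto
  · intro y hy
    have hy' : IsTr μ y := by simpa using hy
    ext z
    simp only [mem_filter, mem_univ, true_and, mem_inter]
    have a1 := hy' z
    have a2 := hy0 z
    tauto
  · intro A hA
    have hA' : A ⊆ y0 := by simpa using hA
    ext z
    simp only [mem_filter, mem_univ, true_and, mem_inter]
    have a2 := hy0 z
    have a3 : z ∈ A → z ∈ y0 := fun hh => hA' hh
    tauto

end Vale.Agent.P162
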