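import Vale.Agent.P162.Comb.Mat
set_option linter.unusedSectionVars false
namespace Vale.Agent.P162
open Finset
variable {S : Type*} [Fintype S] [DecidableEq S]

/-- the matching defined by a bijection `y ≃ yᶜ` -/
def matOfEquiv (y : Finset S) (σ : {x // x ∈ y} ≃ {x // x ∉ y}) : Equiv.Perm S :=
  Function.Involutive.toPerm
    (fun x => if h : x ∈ y then (σ ⟨x, h⟩ : S) else (σ.symm ⟨x, h⟩ : S))
    (by
      intro x
      by_cases h : x ∈ y
      · have h2 : (σ ⟨x, h⟩ : S) ∉ y := (σ ⟨x, h⟩).2
        simp only [h, dif_pos, h2, dif_neg, not_false_eq_true, Subtype.coe_eta,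
          Equiv.symm_apply_apply]
      · have h2 : (σ.symm ⟨x, h⟩ : S) ∈ y := (σ.symm ⟨x, h⟩).2
        simp only [h, dif_neg, not_false_eq_true, h2, dif_pos, Subtype.coe_eta,
          Equiv.apply_symm_apply])

lemma matOfEquiv_apply_mem (y : Finset S) (σ : {x // x ∈ y} ≃ {x // x ∉ y}) (x : S) (h : x ∈ y) :
    matOfEquiv y σ x = σ ⟨x, h⟩ := by
  simp [matOfEquiv, Function.Involutive.toPerm, h]

lemma matOfEquiv_apply_not_mem (y : Finset S) (σ : {x // x ∈ y} ≃ {x // x ∉ y}) (x : S)
    (h : x ∉ y) : matOfEquiv y σ x = σ.symm ⟨x, h⟩ := by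
  simp [matOfEquiv, Function.Involutive.toPerm, h]

theorem card_mat_tr (y : Finset S) (hy : 2 * y.card = Fintype.card S) :
    (univ.filter (fun μ : Equiv.Perm S => IsMat μ ∧ IsTr μ y)).card = (y.card).factorial := by
  have hc1 : Fintype.card {x // x ∈ y} = y.card := Fintype.card_coe y
  have hc2 : Fintype.card {x // x ∉ y} = y.card := by
    have : Fintype.card {x // x ∉ y} = (yᶜ).card := by
      rw [← Fintype.card_coe (yᶜ)]
      apply Fintype.card_congr
      exact Equiv.subtypeEquivRight (fun x => by simp)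
    rw [this, Finset.card_compl]; omega
  have e0 : {x // x ∈ y} ≃ {x // x ∉ y} := Fintype.equivOfCardEq (hc1.trans hc2.symm)
  have h1 := Fintype.card_equiv e0
  rw [hc1] at h1
  rw [← h1, ← Finset.card_univ]
  symm
  apply Finset.card_bij (fun σ _ => matOfEquiv y σ)
  · intro σ _
    rw [mem_filter]
    refine ⟨mem_univ _, ⟨?_, ?_⟩, ?_⟩
    · intro x
      exact (Function.Involutive.toPerm_involutive _) x
    · intro x hx
      by_cases h : x ∈ y
      · rw [matOfEquiv_apply_mem y σ x h] at hx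
        have h3 : (σ ⟨x, h⟩ : S) ∉ y := (σ ⟨x, h⟩).2
        rw [hx] at h3
        exact h3 h
      · rw [matOfEquiv_apply_not_mem y σ x h] at hx
        have h3 : (σ.symm ⟨x, h⟩ : S) ∈ y := (σ.symm ⟨x, h⟩).2
        rw [hx] at h3
        exact h h3
    · intro x
      by_cases h : x ∈ y
      · rw [matOfEquiv_apply_mem y σ x h]
        exact ⟨fun hh => absurd hh (σ ⟨x, h⟩).2, fun hh => absurd h hh⟩
      · rw [matOfEquiv_apply_not_mem y σ x h]
        exact ⟨fun _ => h, fun _ => (σ.symm ⟨x, h⟩).2⟩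
  · intro σ _ σ' _ hh
    ext ⟨x, hx⟩
    have := congrArg (fun μ : Equiv.Perm S => μ x) hh
    simpa [matOfEquiv_apply_mem y _ x hx] using this
  · intro μ hμ
    rw [mem_filter] at hμ
    obtain ⟨_, hm, ht⟩ := hμ
    refine ⟨⟨fun a => ⟨μ a.1, fun hh => ((ht a.1).1 hh) a.2⟩,
      fun b => ⟨μ b.1, (ht b.1).2 b.2⟩, fun a => by simp [hm.1], fun b => by simp [hm.1]⟩,
      mem_univ _, ?_⟩
    ext x
    by_cases h : x ∈ y
    · rw [matOfEquiv_apply_mem y _ x h]; rfl
    · rw [matOfEquiv_apply_not_mem y _ x h]; rfl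

theorem dm_formula (M : ℕ) : dm (2 * M) * 2 ^ M * M.factorial = (2 * M).factorial := by
  classical
  -- double counting of pairs (matching, transversal) on `Fin (2 M)`
  have hN : Fintype.card (Fin (2 * M)) = 2 * M := Fintype.card_fin _
  have h1 : ∑ μ ∈ univ.filter (fun μ : Equiv.Perm (Fin (2 * M)) => IsMat μ),
      (univ.filter (fun y : Finset (Fin (2 * M)) => IsTr μ y)).card = dm (2 * M) * 2 ^ M := by
    rw [Finset.sum_congr rfl (fun μ hμ => by
      rw [card_tr (mem_filter.mp hμ).2, hN, Nat.mul_div_cancel_left _ (by norm_num : 0 < 2)])]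
    rw [Finset.sum_const, smul_eq_mul]; rfl
  have h2 : ∑ μ ∈ univ.filter (fun μ : Equiv.Perm (Fin (2 * M)) => IsMat μ),
      (univ.filter (fun y : Finset (Fin (2 * M)) => IsTr μ y)).card
      = ∑ y ∈ (univ : Finset (Fin (2 * M))).powersetCard M,
        (univ.filter (fun μ : Equiv.Perm (Fin (2 * M)) => IsMat μ ∧ IsTr μ y)).card := by
    simp_rw [Finset.card_filter]
    rw [Finset.sum_filter]
    conv_rhs => rw [Finset.sum_comm]
    apply Finset.sum_congr rfl
    intro μ _
    by_cases hm : IsMat μ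
    · simp only [hm, if_true, true_and]
      symm
      apply Finset.sum_subset (Finset.subset_univ _)
      intro y _ hy
      have : ¬ IsTr μ y := by
        intro ht
        apply hy
        rw [mem_powersetCard]
        refine ⟨subset_univ _, ?_⟩
        have := ht.card hm
        omega
      simp [this]
    · simp [hm]
  have h3 : ∑ y ∈ (univ : Finset (Fin (2 * M))).powersetCard M,
        (univ.filter (fun μ : Equiv.Perm (Fin (2 * M)) => IsMat μ ∧ IsTr μ y)).card
        = (2 * M).choose M * M.factorial := by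
    rw [Finset.sum_congr rfl (fun y hy => by
      rw [card_mat_tr y (by rw [(mem_powersetCard.mp hy).2, hN]), (mem_powersetCard.mp hy).2])]
    rw [Finset.sum_const, card_powersetCard, smul_eq_mul, card_univ, hN]
  have h4 := Nat.choose_mul_factorial_mul_factorial (show M ≤ 2 * M by omega)
  have h5 : 2 * M - M = M := by omega
  rw [h5] at h4
  rw [← h1, h2, h3, h4]

theorem dm_odd (k : ℕ) (hk : ¬ Even k) : dm k = 0 := by
  unfold dm
  rw [Finset.card_eq_zero, Finset.filter_eq_empty_iff]
  intro μ _ hμ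
  apply hk
  have := hμ.even_card
  rwa [Fintype.card_fin] at this

end Vale.Agent.P162
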