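import Vale.Agent.P162.Comb.MatCount
import Vale.Agent.P162.KL.MtSplit

/-!
# P162 : bridge between `Comb/Mat` (filter forms) and `KL/MtSplit` (splitting along a closed set)
-/

set_option linter.unusedSectionVars false

namespace Vale.Agent.P162

open Finset

variable {S : Type*} [Fintype S] [DecidableEq S]

lemma isMat_iff (μ : Equiv.Perm S) : IsMat μ ↔ Mtc.IsMt μ := Iff.rfl

lemma isCl_iff (μ : Equiv.Perm S) (z : Finset S) : IsCl μ z ↔ Mtc.Closed μ z := Iff.rfl

lemma dm_eq (k : ℕ) : Mtc.dm k = dm k := by
  unfold Mtc.dm dm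
  have : Nat.card {μ : Equiv.Perm (Fin k) // Mtc.IsMt μ}
      = Nat.card {μ : Equiv.Perm (Fin k) // IsMat μ} := rfl
  rw [this, Nat.card_eq_fintype_card, Fintype.card_subtype]

/-- the number of matchings for which `x` is closed -/
theorem card_mat_cl (x : Finset S) :
    (univ.filter (fun μ : Equiv.Perm S => IsMat μ ∧ IsCl μ x)).card
      = dm x.card * dm (Fintype.card S - x.card) := by
  have : Nat.card {μ : Equiv.Perm S // Mtc.IsMt μ ∧ Mtc.Closed μ x}
      = Nat.card {μ : Equiv.Perm S // IsMat μ ∧ IsCl μ x} := rfl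
  rw [← dm_eq, ← dm_eq, ← Mtc.card_mt_closed x, this, Nat.card_eq_fintype_card,
    Fintype.card_subtype]

/-- sums of a function of the size over the closed sets of a matching -/
theorem sum_cl_card {μ : Equiv.Perm S} (hμ : IsMat μ) {M : ℕ} (hM : Fintype.card S = 2 * M)
    (f : ℕ → ℝ) :
    ∑ y ∈ univ.filter (fun y : Finset S => IsCl μ y), f y.card
      = ∑ n ∈ Finset.range (M + 1), (M.choose n : ℝ) * f (2 * n) := by
  have := Mtc.sum_closed_card (μ := μ) hμ hM f
  convert this using 2
  ext y
  simp only [Finset.mem_filter, Finset.mem_univ, true_and]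
  exact Iff.rfl

/-- the number of closed sets with `2 n` points -/
theorem card_cl_sets {μ : Equiv.Perm S} (hμ : IsMat μ) {M : ℕ} (hM : Fintype.card S = 2 * M)
    (n : ℕ) :
    (univ.filter (fun y : Finset S => IsCl μ y ∧ y.card = 2 * n)).card = M.choose n := by
  have := Mtc.card_closed_sets (μ := μ) hμ hM n
  convert this using 2
  ext y
  simp only [Finset.mem_filter, Finset.mem_univ, true_and]
  exact Iff.rfl

lemma IsCl.even {μ : Equiv.Perm S} (hμ : IsMat μ) {y : Finset S} (hy : IsCl μ y) :
    Even y.card := Mtc.closed_even (μ := μ) hμ hy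

lemma dm_pos (M : ℕ) : 0 < dm (2 * M) := by
  have h := dm_formula M
  by_contra h0
  have h1 : dm (2 * M) = 0 := by omega
  rw [h1] at h
  have := Nat.factorial_pos (2 * M)
  simp at h
  omega

/-- `C(M,n) dm(2M) = C(2M,2n) dm(2n) dm(2M-2n)` -/
theorem choose_mul_dm {M n : ℕ} (hn : n ≤ M) :
    M.choose n * dm (2 * M) = (2 * M).choose (2 * n) * dm (2 * n) * dm (2 * M - 2 * n) := by
  obtain ⟨k, rfl⟩ := Nat.exists_eq_add_of_le hn
  have e : 2 * (n + k) - 2 * n = 2 * k := by omega
  rw [e]
  have h1 := dm_formula (n + k)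
  have h2 := dm_formula n
  have h3 := dm_formula k
  have h4 : (n + k).choose n * n.factorial * k.factorial = (n + k).factorial := by
    have := Nat.choose_mul_factorial_mul_factorial (Nat.le_add_right n k)
    simpa using this
  have h5 : (2 * (n + k)).choose (2 * n) * (2 * n).factorial * (2 * k).factorial
      = (2 * (n + k)).factorial := by
    have := Nat.choose_mul_factorial_mul_factorial (show 2 * n ≤ 2 * (n + k) by omega)
    rwa [e] at this
  have hpos : 0 < 2 ^ (n + k) * n.factorial * k.factorial := by positivity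
  apply Nat.eq_of_mul_eq_mul_right hpos
  calc (n + k).choose n * dm (2 * (n + k)) * (2 ^ (n + k) * n.factorial * k.factorial)
      = dm (2 * (n + k)) * 2 ^ (n + k) * ((n + k).choose n * n.factorial * k.factorial) := by ring
    _ = (2 * (n + k)).factorial := by rw [h4, h1]
    _ = (2 * (n + k)).choose (2 * n) * (2 * n).factorial * (2 * k).factorial := h5.symm
    _ = (2 * (n + k)).choose (2 * n) * (dm (2 * n) * 2 ^ n * n.factorial)
          * (dm (2 * k) * 2 ^ k * k.factorial) := by rw [h2, h3]
    _ = _ := by rw [pow_add]; ring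

end Vale.Agent.P162
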