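import Vale.Agent.P162.Comb.Split

/-!
# P162 : matchings for which two given sets are closed (four cells)
-/

set_option linter.unusedSectionVars false

namespace Vale.Agent.P162

open Finset

variable {S : Type*} [Fintype S] [DecidableEq S]

/-- matchings with `x` and `y` closed split into matchings of `x` with `y ∩ x` closed and matchings
of the complement of `x` with `y \ x` closed -/
def splitMt2 (x y : Finset S) :
    {μ : Equiv.Perm S // Mtc.IsMt μ ∧ Mtc.Closed μ x ∧ Mtc.Closed μ y} ≃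
      {α : Equiv.Perm {a // a ∈ x} // Mtc.IsMt α ∧ Mtc.Closed α (Mtc.splitSet x y).1} ×
      {β : Equiv.Perm {a // a ∉ x} // Mtc.IsMt β ∧ Mtc.Closed β (Mtc.splitSet x y).2} where
  toFun μ :=
    (⟨(Mtc.splitMt x ⟨μ.1, μ.2.1, μ.2.2.1⟩).1.1, (Mtc.splitMt x ⟨μ.1, μ.2.1, μ.2.2.1⟩).1.2,
        ((Mtc.closed_split x y ⟨μ.1, μ.2.1, μ.2.2.1⟩).1 μ.2.2.2).1⟩,
     ⟨(Mtc.splitMt x ⟨μ.1, μ.2.1, μ.2.2.1⟩).2.1, (Mtc.splitMt x ⟨μ.1, μ.2.1, μ.2.2.1⟩).2.2,
        ((Mtc.closed_split x y ⟨μ.1, μ.2.1, μ.2.2.1⟩).1 μ.2.2.2).2⟩)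
  invFun p :=
    ⟨((Mtc.splitMt x).symm (⟨p.1.1, p.1.2.1⟩, ⟨p.2.1, p.2.2.1⟩)).1,
      ((Mtc.splitMt x).symm (⟨p.1.1, p.1.2.1⟩, ⟨p.2.1, p.2.2.1⟩)).2.1,
      ((Mtc.splitMt x).symm (⟨p.1.1, p.1.2.1⟩, ⟨p.2.1, p.2.2.1⟩)).2.2, by
        rw [Mtc.closed_split x y, Equiv.apply_symm_apply]
        exact ⟨p.1.2.2, p.2.2.2⟩⟩
  left_inv μ := by
    apply Subtype.ext
    have := (Mtc.splitMt x).symm_apply_apply ⟨μ.1, μ.2.1, μ.2.2.1⟩
    exact congrArg (fun q : {μ : Equiv.Perm S // Mtc.IsMt μ ∧ Mtc.Closed μ x} => q.1) this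
  right_inv p := by
    have := (Mtc.splitMt x).apply_symm_apply (⟨p.1.1, p.1.2.1⟩, ⟨p.2.1, p.2.2.1⟩)
    apply Prod.ext
    · apply Subtype.ext
      exact congrArg (fun q => q.1.1) this
    · apply Subtype.ext
      exact congrArg (fun q => q.2.1) this

/-- the number of matchings for which `x` and `y` are both closed -/
theorem natCard_mt_closed2 (x y : Finset S) :
    Nat.card {μ : Equiv.Perm S // Mtc.IsMt μ ∧ Mtc.Closed μ x ∧ Mtc.Closed μ y}
      = dm (y ∩ x).card * dm (x \ y).card * (dm (y \ x).card * dm (Fintype.card S - (x ∪ y).card)) := by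
  rw [Nat.card_congr (splitMt2 x y), Nat.card_prod, Mtc.card_mt_closed, Mtc.card_mt_closed,
    Mtc.card_splitSet_fst, Mtc.card_splitSet_snd, Fintype.card_coe, dm_eq, dm_eq, dm_eq, dm_eq]
  have h1 : x.card - (y ∩ x).card = (x \ y).card := by
    have := Finset.card_inter_add_card_sdiff x y
    rw [Finset.inter_comm] at this
    omega
  have h2 : Fintype.card {a // a ∉ x} - (y \ x).card = Fintype.card S - (x ∪ y).card := by
    have e1 : Fintype.card {a // a ∉ x} = Fintype.card S - x.card := by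
      rw [← Finset.card_compl]
      exact Fintype.card_of_subtype xᶜ (by simp)
    have e2 : (x ∪ y).card = x.card + (y \ x).card := by
      rw [← Finset.union_sdiff_self_eq_union,
        Finset.card_union_of_disjoint Finset.disjoint_sdiff]
    omega
  rw [h1, h2]

/-- filter form -/
theorem card_mat_cl2 (x y : Finset S) :
    (univ.filter (fun μ : Equiv.Perm S => IsMat μ ∧ IsCl μ x ∧ IsCl μ y)).card
      = dm (y ∩ x).card * dm (x \ y).card * (dm (y \ x).card * dm (Fintype.card S - (x ∪ y).card)) := by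
  have : Nat.card {μ : Equiv.Perm S // Mtc.IsMt μ ∧ Mtc.Closed μ x ∧ Mtc.Closed μ y}
      = Nat.card {μ : Equiv.Perm S // IsMat μ ∧ IsCl μ x ∧ IsCl μ y} := rfl
  rw [← natCard_mt_closed2 x y, this, Nat.card_eq_fintype_card, Fintype.card_subtype]

end Vale.Agent.P162
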