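import Vale.Agent.P162.Comb.Join
import Vale.Agent.P162.Comb.MatCount
set_option linter.unusedSectionVars false
namespace Vale.Agent.P162
open Finset
variable {S : Type*} [Fintype S] [DecidableEq S]

lemma isTr_compl {μ : Equiv.Perm S} {y : Finset S} : IsTr μ yᶜ ↔ IsTr μ y := by
  unfold IsTr
  simp only [mem_compl, not_not]
  constructor
  · intro h x; have := h x; tauto
  · intro h x; have := h x; tauto

theorem card_mat_tr2_aux (y1 y2 : Finset S) (h1 : 2 * y1.card = Fintype.card S)
    (h2 : 2 * y2.card = Fintype.card S) (p : S → Prop) [DecidablePred p]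
    (hp : ∀ x, p x ↔ (x ∈ y1 ↔ x ∈ y2)) :
    (univ.filter (fun μ : Equiv.Perm S => IsMat μ ∧ IsTr μ y1 ∧ IsTr μ y2)).card
      = ((y1 ∩ y2).card).factorial * ((y1 \ y2).card).factorial := by
  have hs := sum_joinP p
    (fun μ : Equiv.Perm S => if IsMat μ ∧ IsTr μ y1 ∧ IsTr μ y2 then (1 : ℕ) else 0)
  have e1 : (univ.filter (fun μ : Equiv.Perm S => IsMat μ ∧ IsTr μ y1 ∧ IsTr μ y2)).card
      = ∑ μ ∈ univ.filter (fun μ : Equiv.Perm S => ∀ x, p (μ x) ↔ p x),
          (if IsMat μ ∧ IsTr μ y1 ∧ IsTr μ y2 then (1 : ℕ) else 0) := by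
    rw [Finset.card_filter, Finset.sum_filter]
    apply Finset.sum_congr rfl
    intro μ _
    by_cases hc : IsMat μ ∧ IsTr μ y1 ∧ IsTr μ y2
    · have hpres : ∀ x, p (μ x) ↔ p x := by
        intro x
        have a1 := hc.2.1 x
        have a2 := hc.2.2 x
        simp only [hp]
        tauto
      rw [if_pos hc, if_pos hpres]
    · rw [if_neg hc]
      split_ifs <;> rfl
  set w1 : Finset {x // p x} := y1.subtype p with hw1
  set w2 : Finset {x // ¬ p x} := y1.subtype (fun x => ¬ p x) with hw2
  have hy1 : y1 = joinF p w1 w2 := ((joinFEquiv p).right_inv y1).symm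
  have hy2 : y2 = joinF p w1 w2ᶜ := by
    ext x
    by_cases h : p x
    · rw [mem_joinF_pos _ _ h]
      simp only [hw1, mem_subtype]
      exact ((hp x).1 h).symm
    · rw [mem_joinF_neg _ _ h]
      simp only [hw2, mem_compl, mem_subtype]
      rw [hp] at h
      tauto
  have e2 : ∀ (μ1 : Equiv.Perm {x // p x}) (μ2 : Equiv.Perm {x // ¬ p x}),
      (if IsMat (joinP p μ1 μ2) ∧ IsTr (joinP p μ1 μ2) y1 ∧ IsTr (joinP p μ1 μ2) y2
        then (1 : ℕ) else 0)
      = (if IsMat μ1 ∧ IsTr μ1 w1 then 1 else 0) * (if IsMat μ2 ∧ IsTr μ2 w2 then 1 else 0) := by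
    intro μ1 μ2
    have a1 := isMat_joinP (p := p) μ1 μ2
    have a2 : IsTr (joinP p μ1 μ2) y1 ↔ IsTr μ1 w1 ∧ IsTr μ2 w2 := by
      conv_lhs => rw [hy1]
      exact isTr_joinP_joinF _ _ _ _
    have a3 : IsTr (joinP p μ1 μ2) y2 ↔ IsTr μ1 w1 ∧ IsTr μ2 w2 := by
      conv_lhs => rw [hy2]
      rw [isTr_joinP_joinF, isTr_compl]
    by_cases b1 : IsMat μ1 <;> by_cases b2 : IsMat μ2 <;> by_cases b3 : IsTr μ1 w1 <;>
      by_cases b4 : IsTr μ2 w2 <;> simp [a1, a2, a3, b1, b2, b3, b4]
  rw [e1, hs]
  simp_rw [e2]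
  rw [← Finset.sum_mul_sum, ← Finset.card_filter, ← Finset.card_filter]
  -- cardinalities
  have c1 : w1.card = (y1 ∩ y2).card := by
    rw [hw1, Finset.card_subtype]
    congr 1
    ext x
    simp only [mem_filter, mem_inter, hp]
    tauto
  have c2 : w2.card = (y1 \ y2).card := by
    rw [hw2, Finset.card_subtype]
    congr 1
    ext x
    simp only [mem_filter, mem_sdiff, hp]
    tauto
  have c3 : (y1 ∩ y2).card + (y1 \ y2).card = y1.card := Finset.card_inter_add_card_sdiff y1 y2
  have c4 : Fintype.card {x // p x} = 2 * (y1 ∩ y2).card := by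
    rw [Fintype.card_subtype]
    have : univ.filter p = (y1 ∩ y2) ∪ (y1 ∪ y2)ᶜ := by
      ext x
      simp only [mem_filter, mem_univ, true_and, mem_union, mem_inter, mem_compl, hp]
      tauto
    rw [this, card_union_of_disjoint, card_compl]
    · have := Finset.card_union_add_card_inter y1 y2
      have := Finset.card_le_univ (y1 ∪ y2)
      omega
    · rw [Finset.disjoint_left]
      intro x hx hx2
      simp only [mem_inter, mem_compl, mem_union] at hx hx2
      tauto
  have c5 : Fintype.card {x // ¬ p x} = 2 * (y1 \ y2).card := by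
    rw [Fintype.card_subtype_compl, c4]
    omega
  have f1 := card_mat_tr w1 (by rw [c1, c4])
  have f2 := card_mat_tr w2 (by rw [c2, c5])
  rw [c1] at f1
  rw [c2] at f2
  rw [← f1, ← f2]

theorem card_mat_tr2 (y1 y2 : Finset S) (h1 : 2 * y1.card = Fintype.card S)
    (h2 : 2 * y2.card = Fintype.card S) :
    (univ.filter (fun μ : Equiv.Perm S => IsMat μ ∧ IsTr μ y1 ∧ IsTr μ y2)).card
      = ((y1 ∩ y2).card).factorial * ((y1 \ y2).card).factorial :=
  card_mat_tr2_aux y1 y2 h1 h2 (fun x => (x ∈ y1 ↔ x ∈ y2)) (fun _ => Iff.rfl)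

/-- Boolean form of a transversal -/
lemma isTr_filter_iff (μ : Equiv.Perm S) (t : S → Bool) :
    IsTr μ (univ.filter (fun x => t x = true)) ↔ ∀ x, t (μ x) = !t x := by
  unfold IsTr
  simp only [mem_filter, mem_univ, true_and]
  constructor
  · intro h x
    have := h x
    cases h1 : t (μ x) <;> cases h2 : t x <;> simp_all
  · intro h x
    rw [h x]
    cases h2 : t x <;> simp

/-- number of matchings for which two balanced Boolean colourings are both transversals -/
theorem card_mat_tr2_bool (t1 t2 : S → Bool)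
    (h1 : 2 * (univ.filter (fun x => t1 x = true)).card = Fintype.card S)
    (h2 : 2 * (univ.filter (fun x => t2 x = true)).card = Fintype.card S) :
    (univ.filter (fun μ : Equiv.Perm S =>
        IsMat μ ∧ (∀ x, t1 (μ x) = !t1 x) ∧ (∀ x, t2 (μ x) = !t2 x))).card
      = ((univ.filter (fun x => t1 x = true ∧ t2 x = true)).card).factorial
        * ((univ.filter (fun x => t1 x = true ∧ t2 x = false)).card).factorial := by
  have h := card_mat_tr2 _ _ h1 h2
  have e1 : univ.filter (fun x => t1 x = true) ∩ univ.filter (fun x => t2 x = true)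
      = univ.filter (fun x => t1 x = true ∧ t2 x = true) := by
    ext x; simp
  have e2 : univ.filter (fun x => t1 x = true) \ univ.filter (fun x => t2 x = true)
      = univ.filter (fun x => t1 x = true ∧ t2 x = false) := by
    ext x; simp
  rw [e1, e2] at h
  rw [← h]
  congr 1
  apply Finset.filter_congr
  intro μ _
  rw [isTr_filter_iff, isTr_filter_iff]

end Vale.Agent.P162
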